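import Mathlib

/-!
# Quantum spin systems on a finite set of sites: basic definitions

Sites form a finite type `V`; every site carries `q` levels, a spin configuration is a
function `V → Fin q`, state vectors are functions on configurations and operators are
matrices indexed by configurations.
-/

namespace Vale.Agent.H95.AreaLaw

open Matrix

/-- The `ℓ¹` distance on the square lattice `{0, …, L-1}²`. -/
def l1dist {L : ℕ} (x y : Fin L × Fin L) : ℕ :=
  Nat.dist x.1 y.1 + Nat.dist x.2 y.2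

/-- The operator `M` on `⊗_{x ∈ V} ℂ^q` acts on the tensor factors in `X` and as the
identity elsewhere: its matrix entry `M σ τ` vanishes unless `σ` and `τ` agree off `X`,
and it does not depend on the common values of `σ` and `τ` off `X`. -/
def ActsOn {V : Type} {q : ℕ} (X : Finset V)
    (M : Matrix (V → Fin q) (V → Fin q) ℂ) : Prop :=
  (∀ σ τ, (∃ y, y ∉ X ∧ σ y ≠ τ y) → M σ τ = 0) ∧
  (∀ σ τ σ' τ', (∀ y ∈ X, σ y = σ' y ∧ τ y = τ' y) → (∀ y, y ∉ X → σ y = τ y) →
    (∀ y, y ∉ X → σ' y = τ' y) → M σ τ = M σ' τ')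

/-- `Ω` is a unit vector with `H Ω = E0 Ω` and `H - E0 ≥ Δ (1 - |Ω⟩⟨Ω|)` in the sense of
quadratic forms: `⟨v, (H - E0) v⟩ ≥ Δ (‖v‖² - |⟨Ω, v⟩|²)` for every vector `v`. -/
def IsGappedGroundState {n : Type} [Fintype n] (H : Matrix n n ℂ) (Δ E0 : ℝ)
    (Ω : n → ℂ) : Prop :=
  (∑ σ, Complex.normSq (Ω σ) = 1) ∧ H *ᵥ Ω = (E0 : ℂ) • Ω ∧
  ∀ v : n → ℂ, Δ * (∑ σ, Complex.normSq (v σ) - Complex.normSq (star Ω ⬝ᵥ v)) ≤
    (star v ⬝ᵥ (H *ᵥ v)).re - E0 * ∑ σ, Complex.normSq (v σ)

/-- The configuration on `V` that equals `a` on `A` and `b` off `A`. -/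
def glue {V : Type} [DecidableEq V] {q : ℕ} (A : Finset V)
    (a : {x // x ∈ A} → Fin q) (b : {x // x ∉ A} → Fin q) : V → Fin q :=
  fun x => if hx : x ∈ A then a ⟨x, hx⟩ else b ⟨x, hx⟩

/-- The reduced density matrix `ρ_A = Tr_{V ∖ A} |Ω⟩⟨Ω|` of the vector `Ω` on the region
`A`: `ρ_A(a, a') = ∑_b Ω(a, b) conj (Ω(a', b))`, the sum over configurations `b` off `A`. -/
def reducedDensity {V : Type} [Fintype V] [DecidableEq V] {q : ℕ} (A : Finset V)
    (Ω : (V → Fin q) → ℂ) :
    Matrix ({x // x ∈ A} → Fin q) ({x // x ∈ A} → Fin q) ℂ :=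
  fun a a' => ∑ b : {x // x ∉ A} → Fin q, Ω (glue A a b) * star (Ω (glue A a' b))

theorem reducedDensity_isHermitian {V : Type} [Fintype V] [DecidableEq V] {q : ℕ}
    (A : Finset V) (Ω : (V → Fin q) → ℂ) : (reducedDensity A Ω).IsHermitian := by
  ext a a'
  simp only [reducedDensity, Matrix.conjTranspose_apply, star_sum, star_mul', star_star]
  exact Finset.sum_congr rfl fun b _ => mul_comm _ _

/-- The entanglement entropy `S_Ω(A) = -Tr ρ_A log ρ_A`, computed from the eigenvalues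
`λ_i` of the Hermitian matrix `ρ_A` as `∑_i -λ_i log λ_i` (natural logarithm, `0 log 0 = 0`). -/
noncomputable def entropy {V : Type} [Fintype V] [DecidableEq V] {q : ℕ} (A : Finset V)
    (Ω : (V → Fin q) → ℂ) : ℝ :=
  ∑ i, Real.negMulLog ((reducedDensity_isHermitian A Ω).eigenvalues i)

/-- The edge boundary of a region `A` of the square lattice, as the set of ordered pairs
`(x, y)` with `x ∈ A`, `y ∉ A` and `|x - y|₁ = 1` (one ordered pair for each boundary edge). -/
def edgeBoundary {L : ℕ} (A : Finset (Fin L × Fin L)) :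
    Finset ((Fin L × Fin L) × (Fin L × Fin L)) :=
  (A ×ˢ Aᶜ).filter (fun p => l1dist p.1 p.2 = 1)

end Vale.Agent.H95.AreaLaw
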