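import Vale.Agent.H95.AreaLaw.Defs

/-!
# Entropy is at most the logarithm of the Schmidt rank
-/

namespace Vale.Agent.H95.AreaLaw

open Matrix
open scoped ComplexOrder

/-- For a positive semidefinite matrix of trace one, the sum of `-λ log λ` over the
eigenvalues is at most the logarithm of the rank. -/
theorem sum_negMulLog_eigenvalues_le {n : Type} [Fintype n] [DecidableEq n]
    {ρ : Matrix n n ℂ} (hρ : ρ.PosSemidef) (htr : ρ.trace = 1) :
    0 < ρ.rank ∧ ∑ i, Real.negMulLog (hρ.1.eigenvalues i) ≤ Real.log ρ.rank := by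
  classical
  set ev := hρ.1.eigenvalues with hev
  have hnn : ∀ i, 0 ≤ ev i := fun i => hρ.eigenvalues_nonneg i
  have hsum : ∑ i, ev i = 1 := by
    have h1 := hρ.1.trace_eq_sum_eigenvalues
    rw [htr] at h1
    have h2 := congrArg Complex.re h1
    simp only [Complex.one_re, Complex.re_sum] at h2
    rw [h2]
    exact Finset.sum_congr rfl fun i _ => (Complex.ofReal_re _).symm
  set S := Finset.univ.filter (fun i => ev i ≠ 0) with hS
  have hcard : ρ.rank = S.card := by
    rw [hρ.1.rank_eq_card_non_zero_eigs, Fintype.card_subtype]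
  have hsumS : ∑ i ∈ S, ev i = 1 := by
    rw [← hsum, hS, Finset.sum_filter_ne_zero]
  have hSpos : 0 < S.card := by
    rcases Nat.eq_zero_or_pos S.card with h0 | h0
    · rw [Finset.card_eq_zero] at h0
      rw [h0, Finset.sum_empty] at hsumS
      exact absurd hsumS (by norm_num)
    · exact h0
  have hk : (0 : ℝ) < S.card := by exact_mod_cast hSpos
  have hJ := Real.concaveOn_negMulLog.le_map_sum (t := S) (w := fun _ => (1 : ℝ) / S.card)
    (p := ev) (fun i _ => by positivity)
    (by rw [Finset.sum_const, nsmul_eq_mul]; field_simp)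
    (fun i _ => hnn i)
  simp only [smul_eq_mul] at hJ
  rw [← Finset.mul_sum, ← Finset.mul_sum, hsumS, mul_one] at hJ
  have h3 : Real.negMulLog ((1 : ℝ) / S.card) = (1 / S.card) * Real.log S.card := by
    rw [Real.negMulLog, one_div, Real.log_inv]; ring
  rw [h3] at hJ
  have h4 : ∑ i ∈ S, Real.negMulLog (ev i) ≤ Real.log S.card := by
    have h5 : (0 : ℝ) < 1 / S.card := by positivity
    exact le_of_mul_le_mul_left hJ h5
  have h6 : ∑ i, Real.negMulLog (ev i) = ∑ i ∈ S, Real.negMulLog (ev i) := by
    rw [hS, Finset.sum_filter]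
    refine Finset.sum_congr rfl fun i _ => ?_
    by_cases hi : ev i = 0
    · simp [hi]
    · simp [hi]
  refine ⟨by rw [hcard]; exact hSpos, ?_⟩
  rw [h6, hcard]
  exact h4

/-- Summation over configurations splits into the part on `A` and the part off `A`. -/
theorem sum_glue {V : Type} [Fintype V] [DecidableEq V] {q : ℕ} (A : Finset V)
    {M : Type} [AddCommMonoid M] (f : (V → Fin q) → M) :
    ∑ σ, f σ = ∑ a : {x // x ∈ A} → Fin q, ∑ b : {x // x ∉ A} → Fin q, f (glue A a b) := by
  rw [← Fintype.sum_prod_type']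
  exact ((Equiv.piEquivPiSubtypeProd (fun x => x ∈ A) (fun _ => Fin q)).symm.sum_comp f).symm

/-- The coefficient matrix of a state vector with respect to the cut `A | V ∖ A`. -/
def cutMatrix {V : Type} [DecidableEq V] {q : ℕ} (A : Finset V) (Ω : (V → Fin q) → ℂ) :
    Matrix ({x // x ∈ A} → Fin q) ({x // x ∉ A} → Fin q) ℂ :=
  Matrix.of fun a b => Ω (glue A a b)

theorem reducedDensity_eq {V : Type} [Fintype V] [DecidableEq V] {q : ℕ} (A : Finset V)
    (Ω : (V → Fin q) → ℂ) : reducedDensity A Ω = cutMatrix A Ω * (cutMatrix A Ω)ᴴ := by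
  ext a a'
  simp [reducedDensity, cutMatrix, Matrix.mul_apply]

theorem trace_reducedDensity {V : Type} [Fintype V] [DecidableEq V] {q : ℕ} (A : Finset V)
    (Ω : (V → Fin q) → ℂ) :
    (reducedDensity A Ω).trace = ((∑ σ, Complex.normSq (Ω σ) : ℝ) : ℂ) := by
  rw [sum_glue A (fun σ => Complex.normSq (Ω σ))]
  simp only [Matrix.trace, Matrix.diag_apply, reducedDensity]
  push_cast
  refine Finset.sum_congr rfl fun a _ => Finset.sum_congr rfl fun b _ => ?_
  rw [Complex.star_def, Complex.mul_conj]

/-- If the coefficients of `Ω` across the cut are a sum of `r` products, then the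
entanglement entropy is at most `log r`. -/
theorem entropy_le_log_of_decomp {V : Type} [Fintype V] [DecidableEq V] {q : ℕ}
    (A : Finset V) (Ω : (V → Fin q) → ℂ) (hΩ : ∑ σ, Complex.normSq (Ω σ) = 1)
    {ι : Type} [Fintype ι] (r : ℕ) (hr : Fintype.card ι ≤ r)
    (F : ι → ({x // x ∈ A} → Fin q) → ℂ) (G : ι → ({x // x ∉ A} → Fin q) → ℂ)
    (hFG : ∀ a b, Ω (glue A a b) = ∑ k, F k a * G k b) :
    entropy A Ω ≤ Real.log r := by
  classical
  have hpsd : (reducedDensity A Ω).PosSemidef := by
    rw [reducedDensity_eq]; exact Matrix.posSemidef_self_mul_conjTranspose _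
  have htr : (reducedDensity A Ω).trace = 1 := by
    rw [trace_reducedDensity, hΩ]; simp
  have h1 : entropy A Ω ≤ Real.log (reducedDensity A Ω).rank :=
    (sum_negMulLog_eigenvalues_le hpsd htr).2
  have hpos : 0 < (reducedDensity A Ω).rank := (sum_negMulLog_eigenvalues_le hpsd htr).1
  have hfac : cutMatrix A Ω = (Matrix.of fun a k => F k a) * (Matrix.of fun k b => G k b) := by
    ext a b
    simp [cutMatrix, Matrix.mul_apply, hFG]
  have hrank : (reducedDensity A Ω).rank ≤ r := by
    rw [reducedDensity_eq, Matrix.rank_self_mul_conjTranspose, hfac]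
    exact (Matrix.rank_mul_le_left _ _).trans ((Matrix.rank_le_card_width _).trans hr)
  refine h1.trans (Real.log_le_log (by exact_mod_cast hpos) (by exact_mod_cast hrank))

end Vale.Agent.H95.AreaLaw
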