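import Vale.Agent.H95.AreaLaw.Defs

/-!
# Combinatorics of the square lattice: sets of bounded diameter crossing a cut
-/

namespace Vale.Agent.H95.AreaLaw

section

variable {L : ℕ}

theorem l1dist_self (x : Fin L × Fin L) : l1dist x x = 0 := by
  simp [l1dist]

theorem l1dist_comm (x y : Fin L × Fin L) : l1dist x y = l1dist y x := by
  simp [l1dist, Nat.dist_comm]

theorem l1dist_triangle (x y z : Fin L × Fin L) : l1dist x z ≤ l1dist x y + l1dist y z := by
  simp only [l1dist, Nat.dist]
  omega

theorem eq_of_l1dist_eq_zero {x y : Fin L × Fin L} (h : l1dist x y = 0) : x = y := by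
  simp only [l1dist, Nat.dist] at h
  apply Prod.ext
  · apply Fin.ext; omega
  · apply Fin.ext; omega

/-- From `x ≠ y` one can make a lattice step from `x` that decreases the distance to `y`. -/
theorem exists_step {x y : Fin L × Fin L} (h : x ≠ y) :
    ∃ x' : Fin L × Fin L, l1dist x x' = 1 ∧ l1dist x' y + 1 = l1dist x y := by
  obtain ⟨⟨a, ha⟩, ⟨b, hb⟩⟩ := x
  obtain ⟨⟨c, hc⟩, ⟨d, hd⟩⟩ := y
  rcases Nat.lt_trichotomy a c with h1 | h1 | h1
  · refine ⟨(⟨a + 1, by omega⟩, ⟨b, hb⟩), ?_, ?_⟩
    · simp only [l1dist, Nat.dist]; omega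
    · simp only [l1dist, Nat.dist]; omega
  · subst h1
    have hbd : b ≠ d := by
      intro hbd
      subst hbd
      exact h rfl
    rcases Nat.lt_or_gt_of_ne hbd with h2 | h2
    · refine ⟨(⟨a, ha⟩, ⟨b + 1, by omega⟩), ?_, ?_⟩
      · simp only [l1dist, Nat.dist]; omega
      · simp only [l1dist, Nat.dist]; omega
    · refine ⟨(⟨a, ha⟩, ⟨b - 1, by omega⟩), ?_, ?_⟩
      · simp only [l1dist, Nat.dist]; omega
      · simp only [l1dist, Nat.dist]; omega
  · refine ⟨(⟨a - 1, by omega⟩, ⟨b, hb⟩), ?_, ?_⟩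
    · simp only [l1dist, Nat.dist]; omega
    · simp only [l1dist, Nat.dist]; omega

/-- Between a point of `A` and a point outside `A` there is a boundary edge close to the
first point. -/
theorem exists_boundary_edge (A : Finset (Fin L × Fin L)) :
    ∀ (n : ℕ) (x y : Fin L × Fin L), x ∈ A → y ∉ A → l1dist x y = n →
      ∃ u v, u ∈ A ∧ v ∉ A ∧ l1dist u v = 1 ∧ l1dist x u + 1 ≤ n := by
  intro n
  induction n with
  | zero =>
    intro x y hx hy hxy
    rw [eq_of_l1dist_eq_zero hxy] at hx
    exact absurd hx hy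
  | succ n ih =>
    intro x y hx hy hxy
    have hne : x ≠ y := by
      intro h
      rw [h] at hx
      exact hy hx
    obtain ⟨x', h1, h2⟩ := exists_step hne
    by_cases hx' : x' ∈ A
    · obtain ⟨u, v, hu, hv, huv, hd⟩ := ih x' y hx' hy (by omega)
      refine ⟨u, v, hu, hv, huv, ?_⟩
      have := l1dist_triangle x x' u
      omega
    · refine ⟨x, x', hx, hx', h1, ?_⟩
      rw [l1dist_self]
      omega

/-- The `ℓ¹` ball of radius `r` around `u`. -/
def ball (u : Fin L × Fin L) (r : ℕ) : Finset (Fin L × Fin L) :=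
  Finset.univ.filter (fun y => l1dist u y ≤ r)

theorem card_ball_le (u : Fin L × Fin L) (r : ℕ) : (ball u r).card ≤ (2 * r + 1) ^ 2 := by
  have h := Finset.card_le_card_of_injOn (s := ball u r)
    (t := Finset.range (2 * r + 1) ×ˢ Finset.range (2 * r + 1))
    (fun y => ((y.1 : ℕ) + r - u.1, (y.2 : ℕ) + r - u.2)) ?_ ?_
  · rw [Finset.card_product, Finset.card_range] at h
    rw [pow_two]
    exact h
  · intro y hy
    have hy' : l1dist u y ≤ r := by
      have := Finset.mem_coe.mp hy
      rw [ball, Finset.mem_filter] at this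
      exact this.2
    simp only [l1dist, Nat.dist] at hy'
    simp only [Finset.coe_product, Finset.coe_range, Set.mem_prod, Set.mem_Iio]
    constructor <;> omega
  · intro y hy y' hy' heq
    have h1 : l1dist u y ≤ r := by
      have := Finset.mem_coe.mp hy
      rw [ball, Finset.mem_filter] at this
      exact this.2
    have h2 : l1dist u y' ≤ r := by
      have := Finset.mem_coe.mp hy'
      rw [ball, Finset.mem_filter] at this
      exact this.2
    simp only [l1dist, Nat.dist] at h1 h2
    simp only [Prod.mk.injEq] at heq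
    apply Prod.ext
    · apply Fin.ext; omega
    · apply Fin.ext; omega

/-- A set of diameter at most `R` meeting both `A` and its complement lies in the ball of
radius `2R` around the inner endpoint of some boundary edge. -/
theorem crossing_subset_ball (A : Finset (Fin L × Fin L)) (R : ℕ)
    (X : Finset (Fin L × Fin L)) (hdiam : ∀ x ∈ X, ∀ y ∈ X, l1dist x y ≤ R)
    (hx : ∃ x ∈ X, x ∈ A) (hy : ∃ y ∈ X, y ∉ A) :
    ∃ p ∈ edgeBoundary A, X ⊆ ball p.1 (2 * R) := by
  obtain ⟨x, hxX, hxA⟩ := hx
  obtain ⟨y, hyX, hyA⟩ := hy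
  obtain ⟨u, v, hu, hv, huv, hd⟩ := exists_boundary_edge A (l1dist x y) x y hxA hyA rfl
  refine ⟨(u, v), ?_, ?_⟩
  · rw [edgeBoundary, Finset.mem_filter, Finset.mem_product, Finset.mem_compl]
    exact ⟨⟨hu, hv⟩, huv⟩
  · intro z hz
    rw [ball, Finset.mem_filter]
    refine ⟨Finset.mem_univ _, ?_⟩
    have h1 := l1dist_triangle u x z
    have h2 := hdiam x hxX z hz
    have h3 := hdiam x hxX y hyX
    have h4 := l1dist_comm u x
    show l1dist u z ≤ 2 * R
    omega

/-- The number of sets of diameter at most `R` crossing the cut is at most a constant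
times the size of the edge boundary, and each of them has boundedly many points. -/
theorem card_crossing_le (A : Finset (Fin L × Fin L)) (R : ℕ)
    (S : Finset (Finset (Fin L × Fin L)))
    (hS : ∀ X ∈ S, (∀ x ∈ X, ∀ y ∈ X, l1dist x y ≤ R) ∧ (∃ x ∈ X, x ∈ A) ∧ (∃ y ∈ X, y ∉ A)) :
    S.card ≤ (edgeBoundary A).card * 2 ^ ((4 * R + 1) ^ 2) ∧
      ∀ X ∈ S, X.card ≤ (4 * R + 1) ^ 2 := by
  have hball : ∀ u : Fin L × Fin L, (ball u (2 * R)).card ≤ (4 * R + 1) ^ 2 := by
    intro u
    have := card_ball_le u (2 * R)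
    have e : 2 * (2 * R) + 1 = 4 * R + 1 := by ring
    rwa [e] at this
  constructor
  · have hsub : S ⊆ (edgeBoundary A).biUnion (fun p => (ball p.1 (2 * R)).powerset) := by
      intro X hX
      obtain ⟨hd, hx, hy⟩ := hS X hX
      obtain ⟨p, hp, hXp⟩ := crossing_subset_ball A R X hd hx hy
      rw [Finset.mem_biUnion]
      exact ⟨p, hp, Finset.mem_powerset.mpr hXp⟩
    refine (Finset.card_le_card hsub).trans (Finset.card_biUnion_le.trans ?_)
    refine (Finset.sum_le_card_nsmul _ _ (2 ^ ((4 * R + 1) ^ 2)) ?_).trans ?_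
    · intro p _
      rw [Finset.card_powerset]
      exact Nat.pow_le_pow_right (by norm_num) (hball p.1)
    · rw [smul_eq_mul]
  · intro X hX
    obtain ⟨hd, hx, hy⟩ := hS X hX
    obtain ⟨p, hp, hXp⟩ := crossing_subset_ball A R X hd hx hy
    exact (Finset.card_le_card hXp).trans (hball p.1)

end

end Vale.Agent.H95.AreaLaw
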