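import Vale.Agent.H95.AreaLaw.Defs

/-!
# Operators acting on a set of sites
-/

namespace Vale.Agent.H95.AreaLaw

open Matrix

section

variable {V : Type} [DecidableEq V] {q : ℕ}

/-- Replace the values of the configuration `σ` on `X` by those of `t`. -/
def upd (X : Finset V) (t : {x // x ∈ X} → Fin q) (σ : V → Fin q) : V → Fin q :=
  fun x => if hx : x ∈ X then t ⟨x, hx⟩ else σ x

/-- Restriction of a configuration to `X`. -/
def restr (X : Finset V) (σ : V → Fin q) : {x // x ∈ X} → Fin q := fun x => σ x.1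

theorem upd_of_mem (X : Finset V) (t : {x // x ∈ X} → Fin q) (σ : V → Fin q) {x : V}
    (hx : x ∈ X) : upd X t σ x = t ⟨x, hx⟩ := by
  simp [upd, hx]

theorem upd_of_not_mem (X : Finset V) (t : {x // x ∈ X} → Fin q) (σ : V → Fin q) {x : V}
    (hx : x ∉ X) : upd X t σ x = σ x := by
  simp [upd, hx]

theorem upd_restr_of_agree (X : Finset V) (σ τ : V → Fin q) (h : ∀ y, y ∉ X → τ y = σ y) :
    upd X (restr X τ) σ = τ := by
  funext x
  by_cases hx : x ∈ X
  · rw [upd_of_mem X _ _ hx]; rfl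
  · rw [upd_of_not_mem X _ _ hx, h x hx]

theorem upd_restr_self (X : Finset V) (σ : V → Fin q) : upd X (restr X σ) σ = σ :=
  upd_restr_of_agree X σ σ fun _ _ => rfl

theorem upd_injective (X : Finset V) (σ : V → Fin q) :
    Function.Injective (fun t : {x // x ∈ X} → Fin q => upd X t σ) := by
  intro t t' h
  funext x
  have h2 := congrFun h x.1
  simp only at h2
  rw [upd_of_mem X _ _ x.2, upd_of_mem X _ _ x.2] at h2
  exact h2

variable [Fintype V]

/-- A sum over all configurations of a function supported on the configurations that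
agree with `σ` off `X` is a sum over the configurations on `X`. -/
theorem sum_eq_sum_upd (X : Finset V) (σ : V → Fin q) (g : (V → Fin q) → ℂ)
    (hg : ∀ κ, (∃ y, y ∉ X ∧ κ y ≠ σ y) → g κ = 0) :
    ∑ κ, g κ = ∑ t : {x // x ∈ X} → Fin q, g (upd X t σ) := by
  symm
  apply Fintype.sum_of_injective (fun t : {x // x ∈ X} → Fin q => upd X t σ) (upd_injective X σ)
  · intro κ hκ
    apply hg
    by_contra hcon
    push Not at hcon
    exact hκ ⟨restr X κ, upd_restr_of_agree X σ κ hcon⟩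
  · intro t; rfl

theorem ActsOn.mulVec_apply {X : Finset V} {P : Matrix (V → Fin q) (V → Fin q) ℂ}
    (hP : ActsOn X P) (ψ : (V → Fin q) → ℂ) (σ : V → Fin q) :
    (P *ᵥ ψ) σ = ∑ t : {x // x ∈ X} → Fin q, P σ (upd X t σ) * ψ (upd X t σ) := by
  have h1 : (P *ᵥ ψ) σ = ∑ κ, P σ κ * ψ κ := rfl
  rw [h1]
  apply sum_eq_sum_upd X σ (fun κ => P σ κ * ψ κ)
  rintro κ ⟨y, hy, hne⟩
  show P σ κ * ψ κ = 0
  rw [hP.1 σ κ ⟨y, hy, fun h => hne h.symm⟩, zero_mul]

theorem ActsOn.mono {X Y : Finset V} {M : Matrix (V → Fin q) (V → Fin q) ℂ}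
    (hM : ActsOn X M) (hXY : X ⊆ Y) : ActsOn Y M := by
  constructor
  · rintro σ τ ⟨y, hy, hne⟩
    exact hM.1 σ τ ⟨y, fun h => hy (hXY h), hne⟩
  · intro σ τ σ' τ' hY hoff hoff'
    by_cases hc : ∀ y, y ∉ X → σ y = τ y
    · apply hM.2 σ τ σ' τ' (fun y hy => hY y (hXY hy)) hc
      intro y hy
      by_cases hyY : y ∈ Y
      · rw [← (hY y hyY).1, ← (hY y hyY).2]; exact hc y hy
      · exact hoff' y hyY
    · push Not at hc
      obtain ⟨y, hy, hne⟩ := hc
      have hyY : y ∈ Y := by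
        by_contra hyY
        exact hne (hoff y hyY)
      rw [hM.1 σ τ ⟨y, hy, hne⟩, hM.1 σ' τ' ⟨y, hy, ?_⟩]
      rw [← (hY y hyY).1, ← (hY y hyY).2]
      exact hne

omit [DecidableEq V] [Fintype V] in
theorem ActsOn.add {X : Finset V} {M N : Matrix (V → Fin q) (V → Fin q) ℂ}
    (hM : ActsOn X M) (hN : ActsOn X N) : ActsOn X (M + N) := by
  constructor
  · intro σ τ h
    rw [Matrix.add_apply, hM.1 σ τ h, hN.1 σ τ h, add_zero]
  · intro σ τ σ' τ' hX hoff hoff'
    rw [Matrix.add_apply, Matrix.add_apply, hM.2 σ τ σ' τ' hX hoff hoff',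
      hN.2 σ τ σ' τ' hX hoff hoff']

theorem ActsOn.mul {X : Finset V} {M N : Matrix (V → Fin q) (V → Fin q) ℂ}
    (hM : ActsOn X M) (hN : ActsOn X N) : ActsOn X (M * N) := by
  constructor
  · rintro σ τ ⟨y, hy, hne⟩
    rw [Matrix.mul_apply]
    apply Finset.sum_eq_zero
    intro κ _
    by_cases h : σ y = κ y
    · rw [hN.1 κ τ ⟨y, hy, by rw [← h]; exact hne⟩, mul_zero]
    · rw [hM.1 σ κ ⟨y, hy, h⟩, zero_mul]
  · intro σ τ σ' τ' hX hoff hoff'
    have e1 : (M * N) σ τ = (M *ᵥ (fun κ => N κ τ)) σ := by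
      simp [Matrix.mul_apply, Matrix.mulVec, dotProduct]
    have e2 : (M * N) σ' τ' = (M *ᵥ (fun κ => N κ τ')) σ' := by
      simp [Matrix.mul_apply, Matrix.mulVec, dotProduct]
    rw [e1, e2, hM.mulVec_apply, hM.mulVec_apply]
    refine Finset.sum_congr rfl fun t _ => ?_
    congr 1
    · apply hM.2
      · intro y hy
        exact ⟨(hX y hy).1, by rw [upd_of_mem X _ _ hy, upd_of_mem X _ _ hy]⟩
      · intro y hy; rw [upd_of_not_mem X _ _ hy]
      · intro y hy; rw [upd_of_not_mem X _ _ hy]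
    · apply hN.2
      · intro y hy
        exact ⟨by rw [upd_of_mem X _ _ hy, upd_of_mem X _ _ hy], (hX y hy).2⟩
      · intro y hy; rw [upd_of_not_mem X _ _ hy]; exact hoff y hy
      · intro y hy; rw [upd_of_not_mem X _ _ hy]; exact hoff' y hy

theorem ActsOn.algebraMap (X : Finset V) (c : ℂ) :
    ActsOn X (algebraMap ℂ (Matrix (V → Fin q) (V → Fin q) ℂ) c) := by
  constructor
  · rintro σ τ ⟨y, hy, hne⟩
    have hστ : σ ≠ τ := fun h => hne (by rw [h])
    simp [Matrix.algebraMap_matrix_apply, hστ]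
  · intro σ τ σ' τ' hX hoff hoff'
    have hiff : σ = τ ↔ σ' = τ' := by
      constructor
      · intro h
        funext y
        by_cases hy : y ∈ X
        · rw [← (hX y hy).1, ← (hX y hy).2, h]
        · exact hoff' y hy
      · intro h
        funext y
        by_cases hy : y ∈ X
        · rw [(hX y hy).1, (hX y hy).2, h]
        · exact hoff y hy
    simp [Matrix.algebraMap_matrix_apply, hiff]

/-- The operators acting on `X` form a subalgebra. -/
def localAlg (X : Finset V) : Subalgebra ℂ (Matrix (V → Fin q) (V → Fin q) ℂ) where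
  carrier := {M | ActsOn X M}
  mul_mem' := fun hM hN => ActsOn.mul hM hN
  add_mem' := fun hM hN => ActsOn.add hM hN
  algebraMap_mem' := fun c => ActsOn.algebraMap X c

theorem mem_localAlg {X : Finset V} {M : Matrix (V → Fin q) (V → Fin q) ℂ} :
    M ∈ localAlg X ↔ ActsOn X M := Iff.rfl

end

end Vale.Agent.H95.AreaLaw
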