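import Mathlib

/-!
# Polynomial spectral projections of Hermitian matrices
-/

namespace Vale.Agent.H95.AreaLaw

open Matrix Polynomial

section

variable {n : Type} [Fintype n] [DecidableEq n]

/-- A polynomial in `M` acts on an eigenvector of `M` by the value of the polynomial. -/
theorem aeval_mulVec_of_eigen {M : Matrix n n ℂ} {v : n → ℂ} {μ : ℂ} (h : M *ᵥ v = μ • v)
    (p : ℂ[X]) : (aeval M p) *ᵥ v = p.eval μ • v := by
  induction p using Polynomial.induction_on with
  | C a =>
    rw [aeval_C, eval_C, Matrix.algebraMap_eq_diagonal]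
    ext i
    simp [Matrix.mulVec_diagonal]
  | add p r hp hr =>
    rw [map_add, Matrix.add_mulVec, hp, hr, eval_add, add_smul]
  | monomial k a ih =>
    have e : (C a * X ^ (k + 1) : ℂ[X]) = (C a * X ^ k) * X := by ring
    rw [e, map_mul, aeval_X, ← Matrix.mulVec_mulVec, h, Matrix.mulVec_smul, ih,
      eval_mul (p := C a * X ^ k) (q := X), eval_X, smul_smul, mul_comm]

/-- A polynomial vanishing on the eigenvalues of a Hermitian matrix annihilates it. -/
theorem aeval_eq_zero_of_eigenvalues {M : Matrix n n ℂ} (hM : M.IsHermitian) (p : ℂ[X])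
    (hp : ∀ i, p.eval (hM.eigenvalues i : ℂ) = 0) : aeval M p = 0 := by
  have hcol : ∀ j, (aeval M p) *ᵥ ⇑(hM.eigenvectorBasis j) = 0 := by
    intro j
    have h1 : M *ᵥ ⇑(hM.eigenvectorBasis j) =
        (hM.eigenvalues j : ℂ) • ⇑(hM.eigenvectorBasis j) := by
      rw [hM.mulVec_eigenvectorBasis j]
      ext i
      simp
    rw [aeval_mulVec_of_eigen h1, hp j, zero_smul]
  have hU : (aeval M p) * (hM.eigenvectorUnitary : Matrix n n ℂ) = 0 := by
    ext i j
    have := congrFun (hcol j) i
    simp only [Matrix.mulVec, dotProduct, Pi.zero_apply] at this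
    rw [Matrix.mul_apply, Matrix.zero_apply]
    rw [← this]
    refine Finset.sum_congr rfl fun k _ => ?_
    rw [Matrix.IsHermitian.eigenvectorUnitary_apply]
  have hUU : (hM.eigenvectorUnitary : Matrix n n ℂ) * star (hM.eigenvectorUnitary : Matrix n n ℂ)
      = 1 := Matrix.mem_unitaryGroup_iff.mp hM.eigenvectorUnitary.2
  calc aeval M p = aeval M p * ((hM.eigenvectorUnitary : Matrix n n ℂ) *
        star (hM.eigenvectorUnitary : Matrix n n ℂ)) := by rw [hUU, mul_one]
    _ = 0 := by rw [← mul_assoc, hU, zero_mul]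

/-- For a Hermitian matrix `M` and a number `μ` there is a polynomial `Q` in `M` whose range
lies in the `μ`-eigenspace of `M` and which fixes every `μ`-eigenvector of `M`. -/
theorem exists_spectral_proj {M : Matrix n n ℂ} (hM : M.IsHermitian) (μ : ℂ) :
    ∃ Q : Matrix n n ℂ, Q ∈ Algebra.adjoin ℂ {M} ∧
      (M - algebraMap ℂ (Matrix n n ℂ) μ) * Q = 0 ∧ ∀ v : n → ℂ, M *ᵥ v = μ • v → Q *ᵥ v = v := by
  classical
  set S : Finset ℂ := (Finset.univ.image fun i => (hM.eigenvalues i : ℂ)).erase μ with hS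
  set p : ℂ[X] := ∏ ν ∈ S, (C (μ - ν)⁻¹ * (X - C ν)) with hp
  have hpμ : p.eval μ = 1 := by
    rw [hp, eval_prod]
    apply Finset.prod_eq_one
    intro ν hν
    rw [eval_mul, eval_C, eval_sub, eval_X, eval_C]
    exact inv_mul_cancel₀ (sub_ne_zero.mpr (Finset.ne_of_mem_erase hν).symm)
  refine ⟨aeval M p, aeval_mem_adjoin_singleton _ _, ?_, ?_⟩
  · have e : (M - algebraMap ℂ (Matrix n n ℂ) μ) * aeval M p = aeval M ((X - C μ) * p) := by
      rw [map_mul, map_sub, aeval_X, aeval_C]
    rw [e]
    apply aeval_eq_zero_of_eigenvalues hM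
    intro i
    rw [eval_mul, eval_sub, eval_X, eval_C]
    by_cases hi : (hM.eigenvalues i : ℂ) = μ
    · rw [hi, sub_self, zero_mul]
    · have hmem : (hM.eigenvalues i : ℂ) ∈ S := by
        rw [hS, Finset.mem_erase]
        exact ⟨hi, Finset.mem_image_of_mem _ (Finset.mem_univ i)⟩
      have : p.eval (hM.eigenvalues i : ℂ) = 0 := by
        rw [hp, eval_prod]
        apply Finset.prod_eq_zero hmem
        rw [eval_mul, eval_C, eval_sub, eval_X, eval_C, sub_self, mul_zero]
      rw [this, mul_zero]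
  · intro v hv
    rw [aeval_mulVec_of_eigen hv, hpμ, one_smul]

/-- Anything commuting with `M` commutes with the algebra generated by `M`. -/
theorem commute_of_mem_adjoin {B M Q : Matrix n n ℂ} (h : Commute B M)
    (hQ : Q ∈ Algebra.adjoin ℂ {M}) : Commute B Q := by
  have hle : Algebra.adjoin ℂ {M} ≤ Subalgebra.centralizer ℂ {B} := by
    rw [Algebra.adjoin_le_iff]
    intro x hx
    rw [Set.mem_singleton_iff] at hx
    subst hx
    rw [SetLike.mem_coe, Subalgebra.mem_centralizer_iff]
    intro g hg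
    rw [Set.mem_singleton_iff] at hg
    subst hg
    exact h.eq
  have h2 := hle hQ
  rw [Subalgebra.mem_centralizer_iff] at h2
  exact h2 B rfl

end

end Vale.Agent.H95.AreaLaw
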