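import Vale.Agent.H95.AreaLaw.Schmidt
import Vale.Agent.H95.AreaLaw.Spectral
import Vale.Agent.H95.AreaLaw.Grid

/-!
# Entropy bound across a cut whose crossing terms commute with all terms
-/

namespace Vale.Agent.H95.AreaLaw

open Matrix

theorem star_dotProduct_self {n : Type} [Fintype n] (v : n → ℂ) :
    star v ⬝ᵥ v = ((∑ σ, Complex.normSq (v σ) : ℝ) : ℂ) := by
  simp only [dotProduct, Pi.star_apply]
  push_cast
  refine Finset.sum_congr rfl fun σ _ => ?_
  rw [Complex.normSq_eq_conj_mul_self]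
  rfl

/-- Under a positive gap the eigenvalue `E0` is simple. -/
theorem IsGappedGroundState.eq_smul {n : Type} [Fintype n] {H : Matrix n n ℂ} {Δ E0 : ℝ}
    {Ω : n → ℂ} (hg : IsGappedGroundState H Δ E0 Ω) (hΔ : 0 < Δ) (w : n → ℂ)
    (hw : H *ᵥ w = (E0 : ℂ) • w) : w = (star Ω ⬝ᵥ w) • Ω := by
  obtain ⟨hnorm, hev, hgap⟩ := hg
  set c := star Ω ⬝ᵥ w with hc
  set u := w - c • Ω with hu
  have hHu : H *ᵥ u = (E0 : ℂ) • u := by
    rw [hu, Matrix.mulVec_sub, Matrix.mulVec_smul, hw, hev, smul_sub, smul_comm]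
  have hΩu : star Ω ⬝ᵥ u = 0 := by
    rw [hu, dotProduct_sub, dotProduct_smul, star_dotProduct_self, hnorm]
    simp [hc]
  have h1 := hgap u
  rw [hΩu, hHu] at h1
  have h2 : (star u ⬝ᵥ ((E0 : ℂ) • u)).re = E0 * ∑ σ, Complex.normSq (u σ) := by
    rw [dotProduct_smul, star_dotProduct_self, smul_eq_mul, ← Complex.ofReal_mul,
      Complex.ofReal_re]
  rw [h2] at h1
  simp only [map_zero, sub_zero, sub_self] at h1
  have h5 : ∑ σ, Complex.normSq (u σ) = 0 := by
    refine le_antisymm ?_ (Finset.sum_nonneg fun σ _ => Complex.normSq_nonneg _)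
    by_contra hcon
    push Not at hcon
    have := mul_pos hΔ hcon
    linarith
  have h7 : u = 0 := by
    funext σ
    have h6 := (Finset.sum_eq_zero_iff_of_nonneg
      (fun σ _ => Complex.normSq_nonneg (u σ))).mp h5 σ (Finset.mem_univ σ)
    exact Complex.normSq_eq_zero.mp h6
  rw [hu, sub_eq_zero] at h7
  exact h7

/-- Anything commuting with the Hamiltonian has the ground state as an eigenvector. -/
theorem IsGappedGroundState.eigen_of_commute {n : Type} [Fintype n] {H : Matrix n n ℂ}
    {Δ E0 : ℝ} {Ω : n → ℂ} (hg : IsGappedGroundState H Δ E0 Ω) (hΔ : 0 < Δ)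
    {B : Matrix n n ℂ} (hB : Commute B H) : ∃ c : ℂ, B *ᵥ Ω = c • Ω := by
  refine ⟨star Ω ⬝ᵥ (B *ᵥ Ω), hg.eq_smul hΔ _ ?_⟩
  rw [Matrix.mulVec_mulVec, ← hB.eq, ← Matrix.mulVec_mulVec, hg.2.1, Matrix.mulVec_smul]

theorem IsGappedGroundState.ne_zero {n : Type} [Fintype n] {H : Matrix n n ℂ}
    {Δ E0 : ℝ} {Ω : n → ℂ} (hg : IsGappedGroundState H Δ E0 Ω) : Ω ≠ 0 := by
  intro h
  have h1 := hg.1
  rw [h] at h1
  simp at h1

section lists

variable {n ι : Type} [Fintype n] [DecidableEq n]

theorem list_prod_annihilate (Q : ι → Matrix n n ℂ) (B : Matrix n n ℂ) :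
    ∀ (l : List ι) (X : ι), X ∈ l → (∀ Y ∈ l, Commute B (Q Y)) → B * Q X = 0 →
      B * (l.map Q).prod = 0 := by
  intro l
  induction l with
  | nil => intro X hX; exact absurd hX List.not_mem_nil
  | cons Y l ih =>
    intro X hX hcomm hBX
    rw [List.map_cons, List.prod_cons]
    rcases List.mem_cons.mp hX with h | h
    · subst h
      rw [← mul_assoc, hBX, zero_mul]
    · rw [← mul_assoc, (hcomm Y List.mem_cons_self).eq, mul_assoc,
        ih X h (fun Z hZ => hcomm Z (List.mem_cons_of_mem _ hZ)) hBX, mul_zero]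

theorem list_prod_fix (Q : ι → Matrix n n ℂ) (v : n → ℂ) :
    ∀ (l : List ι), (∀ Y ∈ l, Q Y *ᵥ v = v) → (l.map Q).prod *ᵥ v = v := by
  intro l
  induction l with
  | nil => intro _; simp
  | cons Y l ih =>
    intro h
    rw [List.map_cons, List.prod_cons, ← Matrix.mulVec_mulVec,
      ih (fun Z hZ => h Z (List.mem_cons_of_mem _ hZ)), h Y List.mem_cons_self]

end lists

section general

variable {V : Type} [DecidableEq V] [Fintype V] {q : ℕ}

theorem schmidtLE_list_prod {A : Finset V}
    (Q : Finset V → Matrix (V → Fin q) (V → Fin q) ℂ) {r : ℕ} {v : (V → Fin q) → ℂ}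
    (hv : SchmidtLE A r v) :
    ∀ (l : List (Finset V)), (∀ X ∈ l, ActsOn X (Q X)) →
      SchmidtLE A ((l.map fun X => q ^ (2 * X.card)).prod * r) ((l.map Q).prod *ᵥ v) := by
  intro l
  induction l with
  | nil => intro _; simpa using hv
  | cons X l ih =>
    intro hl
    have h1 := ih (fun Y hY => hl Y (List.mem_cons_of_mem _ hY))
    have h2 := h1.mulVec_general (hl X List.mem_cons_self)
    rw [List.map_cons, List.prod_cons, List.map_cons, List.prod_cons, ← Matrix.mulVec_mulVec,
      mul_assoc]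
    exact h2

/-- Main estimate on a general finite set of sites: if the terms crossing the cut
`A | V ∖ A` commute with every term, then the entropy of the ground state across the cut
is at most the logarithm of `∏ q ^ (2 |X|)` over the crossing sets `X`. -/
theorem entropy_le_of_commuting_cut (h : Finset V → Matrix (V → Fin q) (V → Fin q) ℂ)
    (hherm : ∀ X, (h X).IsHermitian) (hloc : ∀ X, ActsOn X (h X))
    {Δ E0 : ℝ} {Ω : (V → Fin q) → ℂ} (hΔ : 0 < Δ)
    (hg : IsGappedGroundState (∑ X, h X) Δ E0 Ω) (A : Finset V)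
    (cross : Finset (Finset V))
    (hc1 : ∀ X ∈ cross, (∃ x ∈ X, x ∈ A) ∧ (∃ y ∈ X, y ∉ A))
    (hc2 : ∀ X, X ∉ cross → (∃ x ∈ X, x ∈ A) → (∃ y ∈ X, y ∉ A) → h X = 0)
    (hcomm : ∀ X ∈ cross, ∀ Y, Commute (h X) (h Y)) :
    entropy A Ω ≤ Real.log ((∏ X ∈ cross, q ^ (2 * X.card) : ℕ) : ℝ) := by
  classical
  set H := ∑ X, h X with hH
  set HA := ∑ X ∈ Finset.univ.filter (fun X : Finset V => X ⊆ A), h X with hHA
  set HB := ∑ X ∈ Finset.univ.filter (fun X : Finset V => ¬ X ⊆ A ∧ ∀ x ∈ X, x ∉ A), h X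
    with hHB
  set HC := ∑ X ∈ cross, h X with hHC
  -- decomposition of the Hamiltonian
  have hdecomp : H = HA + HB + HC := by
    rw [hH, hHA, hHB, hHC,
      ← Finset.sum_filter_add_sum_filter_not Finset.univ (fun X : Finset V => X ⊆ A) h,
      ← Finset.sum_filter_add_sum_filter_not
        (Finset.univ.filter (fun X : Finset V => ¬ X ⊆ A)) (fun X : Finset V => ∀ x ∈ X, x ∉ A) h,
      Finset.filter_filter, Finset.filter_filter, add_assoc]
    congr 2
    symm
    apply Finset.sum_subset
    · intro X hX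
      obtain ⟨⟨x, hxX, hxA⟩, ⟨y, hyX, hyA⟩⟩ := hc1 X hX
      rw [Finset.mem_filter]
      exact ⟨Finset.mem_univ _, fun hsub => hyA (hsub hyX), fun hall => hall x hxX hxA⟩
    · intro X hX hXc
      rw [Finset.mem_filter] at hX
      obtain ⟨-, h1, h2⟩ := hX
      apply hc2 X hXc
      · by_contra hcon
        apply h2
        intro x hx hxA
        exact hcon ⟨x, hx, hxA⟩
      · by_contra hcon
        apply h1
        intro y hy
        by_contra hyA
        exact hcon ⟨y, hy, hyA⟩
  -- locality and hermiticity of the inner parts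
  have hHA_loc : ActsOn A HA := by
    rw [← mem_localAlg, hHA]
    apply Subalgebra.sum_mem
    intro X hX
    rw [Finset.mem_filter] at hX
    exact (hloc X).mono hX.2
  have hHB_loc : ActsOn Aᶜ HB := by
    rw [← mem_localAlg, hHB]
    apply Subalgebra.sum_mem
    intro X hX
    rw [Finset.mem_filter] at hX
    exact (hloc X).mono fun x hx => Finset.mem_compl.mpr (hX.2.2 x hx)
  have hHA_herm : HA.IsHermitian := by
    rw [hHA, Matrix.IsHermitian, Matrix.conjTranspose_sum]
    exact Finset.sum_congr rfl fun X _ => hherm X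
  have hHB_herm : HB.IsHermitian := by
    rw [hHB, Matrix.IsHermitian, Matrix.conjTranspose_sum]
    exact Finset.sum_congr rfl fun X _ => hherm X
  -- commutation relations
  have hAB : Commute HA HB :=
    hHA_loc.commute_of_disjoint hHB_loc fun x hx hx' => (Finset.mem_compl.mp hx') hx
  have hXA : ∀ X ∈ cross, Commute (h X) HA := fun X hX =>
    Commute.sum_right _ _ _ fun Y _ => hcomm X hX Y
  have hXB : ∀ X ∈ cross, Commute (h X) HB := fun X hX =>
    Commute.sum_right _ _ _ fun Y _ => hcomm X hX Y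
  have hXH : ∀ X ∈ cross, Commute (h X) H := fun X hX =>
    Commute.sum_right _ _ _ fun Y _ => hcomm X hX Y
  have hAC : Commute HA HC := Commute.sum_right _ _ _ fun X hX => (hXA X hX).symm
  have hBC : Commute HB HC := Commute.sum_right _ _ _ fun X hX => (hXB X hX).symm
  have hAH : Commute HA H := by
    rw [hdecomp]
    exact ((Commute.refl HA).add_right hAB).add_right hAC
  have hBH : Commute HB H := by
    rw [hdecomp]
    exact (hAB.symm.add_right (Commute.refl HB)).add_right hBC
  -- the ground state is a joint eigenvector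
  obtain ⟨a, ha⟩ := hg.eigen_of_commute hΔ hAH
  obtain ⟨b, hb⟩ := hg.eigen_of_commute hΔ hBH
  have hlamex : ∀ X, ∃ c : ℂ, X ∈ cross → h X *ᵥ Ω = c • Ω := by
    intro X
    by_cases hX : X ∈ cross
    · obtain ⟨c, hc⟩ := hg.eigen_of_commute hΔ (hXH X hX)
      exact ⟨c, fun _ => hc⟩
    · exact ⟨0, fun hX' => absurd hX' hX⟩
  choose lam hlam using hlamex
  have hΩne : Ω ≠ 0 := hg.ne_zero
  have hE : (E0 : ℂ) = a + b + ∑ X ∈ cross, lam X := by
    have h1 : H *ᵥ Ω = (a + b + ∑ X ∈ cross, lam X) • Ω := by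
      rw [hdecomp, Matrix.add_mulVec, Matrix.add_mulVec, ha, hb, add_smul, add_smul, hHC,
        Finset.sum_smul]
      congr 1
      have : ∀ (s : Finset (Finset V)), (∑ X ∈ s, h X) *ᵥ Ω = ∑ X ∈ s, h X *ᵥ Ω := by
        intro s
        induction s using Finset.induction_on with
        | empty => simp
        | insert X s hXs ih => rw [Finset.sum_insert hXs, Finset.sum_insert hXs,
            Matrix.add_mulVec, ih]
      rw [this]
      exact Finset.sum_congr rfl fun X hX => hlam X hX
    rw [hg.2.1] at h1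
    obtain ⟨σ, hσ⟩ : ∃ σ, Ω σ ≠ 0 := by
      by_contra hcon
      push Not at hcon
      exact hΩne (funext hcon)
    have h2 := congrFun h1 σ
    simp only [Pi.smul_apply, smul_eq_mul] at h2
    exact mul_right_cancel₀ hσ h2
  -- spectral projections
  obtain ⟨PA, hPA_mem, hPA_zero, hPA_fix⟩ := exists_spectral_proj hHA_herm a
  obtain ⟨PB, hPB_mem, hPB_zero, hPB_fix⟩ := exists_spectral_proj hHB_herm b
  choose Q hQ_mem hQ_zero hQ_fix using fun X => exists_spectral_proj (hherm X) (lam X)
  have hPA_loc : ActsOn A PA := by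
    rw [← mem_localAlg]
    exact (Algebra.adjoin_le (by
      intro x hx
      rw [Set.mem_singleton_iff] at hx
      rw [hx]
      exact hHA_loc) : Algebra.adjoin ℂ {HA} ≤ localAlg A) hPA_mem
  have hPB_loc : ActsOn Aᶜ PB := by
    rw [← mem_localAlg]
    exact (Algebra.adjoin_le (by
      intro x hx
      rw [Set.mem_singleton_iff] at hx
      rw [hx]
      exact hHB_loc) : Algebra.adjoin ℂ {HB} ≤ localAlg Aᶜ) hPB_mem
  have hQ_loc : ∀ X, ActsOn X (Q X) := by
    intro X
    rw [← mem_localAlg]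
    exact (Algebra.adjoin_le (by
      intro x hx
      rw [Set.mem_singleton_iff] at hx
      rw [hx]
      exact hloc X) : Algebra.adjoin ℂ {h X} ≤ localAlg X) (hQ_mem X)
  -- the product operator
  set l := cross.toList with hl
  have hmem : ∀ X, X ∈ l ↔ X ∈ cross := fun X => Finset.mem_toList
  set T := (l.map Q).prod * PA * PB with hT
  have hTΩ : T *ᵥ Ω = Ω := by
    rw [hT, ← Matrix.mulVec_mulVec, ← Matrix.mulVec_mulVec, hPB_fix Ω hb, hPA_fix Ω ha]
    exact list_prod_fix Q Ω l fun X hX => hQ_fix X Ω (hlam X ((hmem X).mp hX))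
  -- eigen-equations for T
  have hsc : ∀ (c : ℂ) (M : Matrix (V → Fin q) (V → Fin q) ℂ),
      Commute (algebraMap ℂ (Matrix (V → Fin q) (V → Fin q) ℂ) c) M := fun c M =>
    Algebra.commute_algebraMap_left c M
  have hA_T : (HA - algebraMap ℂ _ a) * T = 0 := by
    have hc : Commute (HA - algebraMap ℂ _ a) (l.map Q).prod := by
      apply Commute.list_prod_right
      intro M hM
      obtain ⟨X, hX, rfl⟩ := List.mem_map.mp hM
      refine Commute.sub_left ?_ (hsc a _)
      exact commute_of_mem_adjoin (hXA X ((hmem X).mp hX)).symm (hQ_mem X)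
    rw [hT, mul_assoc, ← mul_assoc, hc.eq, mul_assoc, ← mul_assoc _ PA PB, hPA_zero, zero_mul,
      mul_zero]
  have hB_T : (HB - algebraMap ℂ _ b) * T = 0 := by
    have hc : Commute (HB - algebraMap ℂ _ b) (l.map Q).prod := by
      apply Commute.list_prod_right
      intro M hM
      obtain ⟨X, hX, rfl⟩ := List.mem_map.mp hM
      refine Commute.sub_left ?_ (hsc b _)
      exact commute_of_mem_adjoin (hXB X ((hmem X).mp hX)).symm (hQ_mem X)
    have hc2 : Commute (HB - algebraMap ℂ _ b) PA := by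
      refine Commute.sub_left ?_ (hsc b _)
      exact commute_of_mem_adjoin hAB.symm hPA_mem
    rw [hT, mul_assoc, ← mul_assoc, hc.eq, mul_assoc, ← mul_assoc _ PA PB, hc2.eq, mul_assoc,
      hPB_zero, mul_zero, mul_zero]
  have hX_T : ∀ X ∈ cross, (h X - algebraMap ℂ _ (lam X)) * T = 0 := by
    intro X hX
    have h1 : (h X - algebraMap ℂ _ (lam X)) * (l.map Q).prod = 0 := by
      apply list_prod_annihilate Q _ l X ((hmem X).mpr hX)
      · intro Y hY
        refine Commute.sub_left ?_ (hsc _ _)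
        exact commute_of_mem_adjoin (hcomm X hX Y) (hQ_mem Y)
      · exact hQ_zero X
    rw [hT, mul_assoc, ← mul_assoc, h1, zero_mul]
  have hHT : H * T = algebraMap ℂ _ (E0 : ℂ) * T := by
    have e1 : HA * T = algebraMap ℂ _ a * T := by
      have := hA_T
      rw [sub_mul, sub_eq_zero] at this
      exact this
    have e2 : HB * T = algebraMap ℂ _ b * T := by
      have := hB_T
      rw [sub_mul, sub_eq_zero] at this
      exact this
    have e3 : HC * T = algebraMap ℂ _ (∑ X ∈ cross, lam X) * T := by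
      rw [hHC, Finset.sum_mul, map_sum, Finset.sum_mul]
      refine Finset.sum_congr rfl fun X hX => ?_
      have := hX_T X hX
      rw [sub_mul, sub_eq_zero] at this
      exact this
    rw [hdecomp, add_mul, add_mul, e1, e2, e3, hE, map_add, map_add, add_mul, add_mul]
  -- a basis vector not annihilated by T
  obtain ⟨σ0, hσ0⟩ : ∃ σ0, T *ᵥ (Pi.single σ0 (1 : ℂ)) ≠ 0 := by
    by_contra hcon
    push Not at hcon
    have hT0 : T = 0 := by
      ext σ τ
      have := congrFun (hcon τ) σ
      rw [Matrix.mulVec_single_one] at this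
      exact this
    rw [hT0, Matrix.zero_mulVec] at hTΩ
    exact hΩne hTΩ.symm
  set w := T *ᵥ (Pi.single σ0 (1 : ℂ)) with hw
  have hHw : H *ᵥ w = (E0 : ℂ) • w := by
    rw [hw, Matrix.mulVec_mulVec, hHT, ← Matrix.mulVec_mulVec, Matrix.algebraMap_eq_diagonal]
    ext σ
    simp [Matrix.mulVec_diagonal]
  have hwΩ := hg.eq_smul hΔ w hHw
  set c := star Ω ⬝ᵥ w with hc
  have hcne : c ≠ 0 := by
    intro h0
    rw [h0, zero_smul] at hwΩ
    exact hσ0 hwΩ
  -- product structure of w
  have hSw : SchmidtLE A ((l.map fun X => q ^ (2 * X.card)).prod * 1) w := by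
    rw [hw, hT, ← Matrix.mulVec_mulVec, ← Matrix.mulVec_mulVec]
    apply schmidtLE_list_prod Q _ l fun X _ => hQ_loc X
    apply SchmidtLE.mulVec_inside _ hPA_loc (Finset.Subset.refl A)
    apply SchmidtLE.mulVec_outside _ hPB_loc (fun x hx => Finset.mem_compl.mp hx)
    exact schmidtLE_single A σ0
  have hSΩ : SchmidtLE A ((l.map fun X => q ^ (2 * X.card)).prod * 1) Ω := by
    have h1 := hSw.smul c⁻¹
    rw [hwΩ, smul_smul, inv_mul_cancel₀ hcne, one_smul] at h1
    exact h1
  have hfin := hSΩ.entropy_le hg.1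
  rw [mul_one, hl, Finset.prod_map_toList] at hfin
  exact hfin

end general

end Vale.Agent.H95.AreaLaw
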