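import Vale.Agent.H95.AreaLaw.Local
import Vale.Agent.H95.AreaLaw.Entropy

/-!
# Product decompositions of state vectors across a cut
-/

namespace Vale.Agent.H95.AreaLaw

open Matrix

section

variable {V : Type} [DecidableEq V] [Fintype V] {q : ℕ}

/-- Operators acting on disjoint sets of sites commute. -/
theorem ActsOn.commute_of_disjoint {X Y : Finset V}
    {M N : Matrix (V → Fin q) (V → Fin q) ℂ} (hM : ActsOn X M) (hN : ActsOn Y N)
    (hXY : ∀ x, x ∈ X → x ∉ Y) : Commute M N := by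
  ext σ τ
  -- left side
  have e1 : (M * N) σ τ = M σ (upd X (restr X τ) σ) * N (upd X (restr X τ) σ) τ := by
    have h0 : (M * N) σ τ = (M *ᵥ (fun κ => N κ τ)) σ := by
      simp [Matrix.mul_apply, Matrix.mulVec, dotProduct]
    rw [h0, hM.mulVec_apply]
    apply Finset.sum_eq_single (restr X τ)
    · intro t _ ht
      have : ∃ x : {x // x ∈ X}, t x ≠ τ x.1 := by
        by_contra hcon
        push Not at hcon
        exact ht (funext hcon)
      obtain ⟨x, hx⟩ := this
      rw [hN.1 (upd X t σ) τ ⟨x.1, hXY x.1 x.2, by rw [upd_of_mem X _ _ x.2]; exact hx⟩,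
        mul_zero]
    · intro h; exact absurd (Finset.mem_univ _) h
  have e2 : (N * M) σ τ = N σ (upd X (restr X σ) τ) * M (upd X (restr X σ) τ) τ := by
    have h0 : (N * M) σ τ = ∑ κ, N σ κ * M κ τ := Matrix.mul_apply
    rw [h0, sum_eq_sum_upd X τ (fun κ => N σ κ * M κ τ)]
    · apply Finset.sum_eq_single (restr X σ)
      · intro t _ ht
        have : ∃ x : {x // x ∈ X}, t x ≠ σ x.1 := by
          by_contra hcon
          push Not at hcon
          exact ht (funext hcon)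
        obtain ⟨x, hx⟩ := this
        rw [hN.1 σ (upd X t τ) ⟨x.1, hXY x.1 x.2, by
          rw [upd_of_mem X _ _ x.2]; exact fun h => hx h.symm⟩, zero_mul]
      · intro h; exact absurd (Finset.mem_univ _) h
    · rintro κ ⟨y, hy, hne⟩
      show N σ κ * M κ τ = 0
      rw [hM.1 κ τ ⟨y, hy, hne⟩, mul_zero]
  rw [e1, e2]
  by_cases hc : ∀ z, z ∉ X → z ∉ Y → σ z = τ z
  · have hM' : M σ (upd X (restr X τ) σ) = M (upd X (restr X σ) τ) τ := by
      apply hM.2
      · intro y hy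
        rw [upd_of_mem X _ _ hy, upd_of_mem X _ _ hy]
        exact ⟨rfl, rfl⟩
      · intro y hy; rw [upd_of_not_mem X _ _ hy]
      · intro y hy; rw [upd_of_not_mem X _ _ hy]
    have hN' : N (upd X (restr X τ) σ) τ = N σ (upd X (restr X σ) τ) := by
      apply hN.2
      · intro y hy
        have hyX : y ∉ X := fun h => hXY y h hy
        rw [upd_of_not_mem X _ _ hyX, upd_of_not_mem X _ _ hyX]
        exact ⟨rfl, rfl⟩
      · intro y hy
        by_cases hyX : y ∈ X
        · rw [upd_of_mem X _ _ hyX]; rfl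
        · rw [upd_of_not_mem X _ _ hyX]; exact hc y hyX hy
      · intro y hy
        by_cases hyX : y ∈ X
        · rw [upd_of_mem X _ _ hyX]; rfl
        · rw [upd_of_not_mem X _ _ hyX]; exact hc y hyX hy
    rw [hM', hN', mul_comm]
  · push Not at hc
    obtain ⟨z, hzX, hzY, hne⟩ := hc
    rw [hN.1 (upd X (restr X τ) σ) τ ⟨z, hzY, by rw [upd_of_not_mem X _ _ hzX]; exact hne⟩,
      hN.1 σ (upd X (restr X σ) τ) ⟨z, hzY, by rw [upd_of_not_mem X _ _ hzX]; exact hne⟩,
      mul_zero, zero_mul]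

/-- `ψ` is a sum of at most `r` products of a function of the configuration on `A` and a
function of the configuration off `A`. -/
def SchmidtLE (A : Finset V) (r : ℕ) (ψ : (V → Fin q) → ℂ) : Prop :=
  ∃ (ι : Type) (_ : Fintype ι), Fintype.card ι ≤ r ∧ ∃ f g : ι → (V → Fin q) → ℂ,
    (∀ k σ τ, (∀ x, x ∈ A → σ x = τ x) → f k σ = f k τ) ∧
    (∀ k σ τ, (∀ x, x ∉ A → σ x = τ x) → g k σ = g k τ) ∧
    ∀ σ, ψ σ = ∑ k, f k σ * g k σ

theorem SchmidtLE.entropy_le {A : Finset V} {r : ℕ} {Ω : (V → Fin q) → ℂ}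
    (h : SchmidtLE A r Ω) (hΩ : ∑ σ, Complex.normSq (Ω σ) = 1) :
    entropy A Ω ≤ Real.log r := by
  obtain ⟨ι, hι, hr, f, g, hf, hg, hfg⟩ := h
  have hne : Nonempty (V → Fin q) := by
    by_contra hcon
    rw [not_nonempty_iff] at hcon
    rw [Finset.univ_eq_empty, Finset.sum_empty] at hΩ
    exact zero_ne_one hΩ
  obtain ⟨σ0⟩ := hne
  refine entropy_le_log_of_decomp A Ω hΩ r hr
    (fun k a => f k (glue A a (fun x => σ0 x.1)))
    (fun k b => g k (glue A (fun x => σ0 x.1) b)) ?_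
  intro a b
  rw [hfg]
  refine Finset.sum_congr rfl fun k _ => ?_
  congr 1
  · apply hf
    intro x hx
    simp [glue, hx]
  · apply hg
    intro x hx
    simp [glue, hx]

omit [DecidableEq V] [Fintype V] in
theorem SchmidtLE.mono {A : Finset V} {r s : ℕ} {ψ : (V → Fin q) → ℂ}
    (h : SchmidtLE A r ψ) (hrs : r ≤ s) : SchmidtLE A s ψ := by
  obtain ⟨ι, hι, hr, f, g, hf, hg, hfg⟩ := h
  exact ⟨ι, hι, hr.trans hrs, f, g, hf, hg, hfg⟩

omit [DecidableEq V] [Fintype V] in
theorem SchmidtLE.smul {A : Finset V} {r : ℕ} {ψ : (V → Fin q) → ℂ}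
    (h : SchmidtLE A r ψ) (c : ℂ) : SchmidtLE A r (c • ψ) := by
  obtain ⟨ι, hι, hr, f, g, hf, hg, hfg⟩ := h
  refine ⟨ι, hι, hr, fun k σ => c * f k σ, g, ?_, hg, ?_⟩
  · intro k σ τ hστ
    show c * f k σ = c * f k τ
    rw [hf k σ τ hστ]
  · intro σ
    rw [Pi.smul_apply, hfg, smul_eq_mul, Finset.mul_sum]
    exact Finset.sum_congr rfl fun k _ => (mul_assoc _ _ _).symm

theorem SchmidtLE.compl {A : Finset V} {r : ℕ} {ψ : (V → Fin q) → ℂ}
    (h : SchmidtLE A r ψ) : SchmidtLE Aᶜ r ψ := by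
  obtain ⟨ι, hι, hr, f, g, hf, hg, hfg⟩ := h
  refine ⟨ι, hι, hr, g, f, ?_, ?_, ?_⟩
  · intro k σ τ hστ
    exact hg k σ τ fun x hx => hστ x (Finset.mem_compl.mpr hx)
  · intro k σ τ hστ
    refine hf k σ τ fun x hx => hστ x ?_
    rw [Finset.mem_compl]; exact fun h => h hx
  · intro σ
    rw [hfg]
    exact Finset.sum_congr rfl fun k _ => mul_comm _ _

theorem SchmidtLE.of_compl {A : Finset V} {r : ℕ} {ψ : (V → Fin q) → ℂ}
    (h : SchmidtLE Aᶜ r ψ) : SchmidtLE A r ψ := by
  have := h.compl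
  rwa [compl_compl] at this

/-- A basis vector is a product across every cut. -/
theorem schmidtLE_single (A : Finset V) (σ0 : V → Fin q) :
    SchmidtLE A 1 (Pi.single σ0 (1 : ℂ)) := by
  classical
  refine ⟨Unit, inferInstance, by simp,
    fun _ σ => if ∀ x, x ∈ A → σ x = σ0 x then 1 else 0,
    fun _ σ => if ∀ x, x ∉ A → σ x = σ0 x then 1 else 0, ?_, ?_, ?_⟩
  · intro _ σ τ hστ
    have : (∀ x, x ∈ A → σ x = σ0 x) ↔ (∀ x, x ∈ A → τ x = σ0 x) :=
      ⟨fun h x hx => by rw [← hστ x hx]; exact h x hx,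
        fun h x hx => by rw [hστ x hx]; exact h x hx⟩
    simp only [this]
  · intro _ σ τ hστ
    have : (∀ x, x ∉ A → σ x = σ0 x) ↔ (∀ x, x ∉ A → τ x = σ0 x) :=
      ⟨fun h x hx => by rw [← hστ x hx]; exact h x hx,
        fun h x hx => by rw [hστ x hx]; exact h x hx⟩
    simp only [this]
  · intro σ
    rw [Fintype.sum_unique, Pi.single_apply]
    by_cases h : σ = σ0
    · subst h; simp
    · have : ¬ ((∀ x, x ∈ A → σ x = σ0 x) ∧ (∀ x, x ∉ A → σ x = σ0 x)) := by
        rintro ⟨h1, h2⟩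
        apply h
        funext x
        by_cases hx : x ∈ A
        · exact h1 x hx
        · exact h2 x hx
      rw [if_neg h]
      by_cases h1 : ∀ x, x ∈ A → σ x = σ0 x
      · have h2 : ¬ (∀ x, x ∉ A → σ x = σ0 x) := fun h2 => this ⟨h1, h2⟩
        simp [h2]
      · simp [h1]

/-- An operator acting inside `A` does not increase the number of product terms. -/
theorem SchmidtLE.mulVec_inside {A X : Finset V} {r : ℕ} {ψ : (V → Fin q) → ℂ}
    {P : Matrix (V → Fin q) (V → Fin q) ℂ} (h : SchmidtLE A r ψ) (hP : ActsOn X P)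
    (hXA : X ⊆ A) : SchmidtLE A r (P *ᵥ ψ) := by
  obtain ⟨ι, hι, hr, f, g, hf, hg, hfg⟩ := h
  refine ⟨ι, hι, hr, fun k => P *ᵥ (f k), g, ?_, hg, ?_⟩
  · intro k σ τ hστ
    show (P *ᵥ f k) σ = (P *ᵥ f k) τ
    rw [hP.mulVec_apply, hP.mulVec_apply]
    refine Finset.sum_congr rfl fun t _ => ?_
    congr 1
    · apply hP.2
      · intro y hy
        rw [upd_of_mem X _ _ hy, upd_of_mem X _ _ hy]
        exact ⟨hστ y (hXA hy), rfl⟩
      · intro y hy; rw [upd_of_not_mem X _ _ hy]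
      · intro y hy; rw [upd_of_not_mem X _ _ hy]
    · apply hf
      intro x hx
      by_cases hxX : x ∈ X
      · rw [upd_of_mem X _ _ hxX, upd_of_mem X _ _ hxX]
      · rw [upd_of_not_mem X _ _ hxX, upd_of_not_mem X _ _ hxX]; exact hστ x hx
  · intro σ
    rw [hP.mulVec_apply]
    have h1 : ∀ t : {x // x ∈ X} → Fin q, P σ (upd X t σ) * ψ (upd X t σ) =
        ∑ k, (P σ (upd X t σ) * f k (upd X t σ)) * g k σ := by
      intro t
      rw [hfg, Finset.mul_sum]
      refine Finset.sum_congr rfl fun k _ => ?_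
      rw [mul_assoc]
      congr 2
      apply hg
      intro x hx
      rw [upd_of_not_mem X _ _ (fun hxX => hx (hXA hxX))]
    rw [Finset.sum_congr rfl fun t _ => h1 t, Finset.sum_comm]
    refine Finset.sum_congr rfl fun k _ => ?_
    show _ = (P *ᵥ f k) σ * g k σ
    rw [hP.mulVec_apply, Finset.sum_mul]

/-- An operator acting outside `A` does not increase the number of product terms. -/
theorem SchmidtLE.mulVec_outside {A X : Finset V} {r : ℕ} {ψ : (V → Fin q) → ℂ}
    {P : Matrix (V → Fin q) (V → Fin q) ℂ} (h : SchmidtLE A r ψ) (hP : ActsOn X P)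
    (hXA : ∀ x, x ∈ X → x ∉ A) : SchmidtLE A r (P *ᵥ ψ) := by
  apply SchmidtLE.of_compl
  apply h.compl.mulVec_inside hP
  intro x hx
  exact Finset.mem_compl.mpr (hXA x hx)

/-- An operator acting on `X` multiplies the number of product terms by at most
`q ^ (2 |X|)`. -/
theorem SchmidtLE.mulVec_general {A X : Finset V} {r : ℕ} {ψ : (V → Fin q) → ℂ}
    {P : Matrix (V → Fin q) (V → Fin q) ℂ} (h : SchmidtLE A r ψ) (hP : ActsOn X P) :
    SchmidtLE A (q ^ (2 * X.card) * r) (P *ᵥ ψ) := by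
  classical
  obtain ⟨ι, hι, hr, f, g, hf, hg, hfg⟩ := h
  by_cases hne : Nonempty (V → Fin q)
  · obtain ⟨σ0⟩ := hne
    refine ⟨({x // x ∈ X} → Fin q) × ({x // x ∈ X} → Fin q) × ι, inferInstance, ?_,
      fun i σ => (if ∀ x (hx : x ∈ X), x ∈ A → σ x = i.1 ⟨x, hx⟩ then (1 : ℂ) else 0) *
        P (upd X i.1 σ0) (upd X i.2.1 σ0) * f i.2.2 (upd X i.2.1 σ),
      fun i σ => (if ∀ x (hx : x ∈ X), x ∉ A → σ x = i.1 ⟨x, hx⟩ then (1 : ℂ) else 0) *
        g i.2.2 (upd X i.2.1 σ), ?_, ?_, ?_⟩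
    · rw [Fintype.card_prod, Fintype.card_prod, Fintype.card_fun, Fintype.card_coe,
        Fintype.card_fin, two_mul, pow_add, mul_assoc]
      exact Nat.mul_le_mul_left _ (Nat.mul_le_mul_left _ hr)
    · intro i σ τ hστ
      have hiff : (∀ x (hx : x ∈ X), x ∈ A → σ x = i.1 ⟨x, hx⟩) ↔
          (∀ x (hx : x ∈ X), x ∈ A → τ x = i.1 ⟨x, hx⟩) :=
        ⟨fun h x hx hxA => by rw [← hστ x hxA]; exact h x hx hxA,
          fun h x hx hxA => by rw [hστ x hxA]; exact h x hx hxA⟩
      have hfeq : f i.2.2 (upd X i.2.1 σ) = f i.2.2 (upd X i.2.1 τ) := by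
        apply hf
        intro x hx
        by_cases hxX : x ∈ X
        · rw [upd_of_mem X _ _ hxX, upd_of_mem X _ _ hxX]
        · rw [upd_of_not_mem X _ _ hxX, upd_of_not_mem X _ _ hxX]; exact hστ x hx
      simp only [hiff, hfeq]
    · intro i σ τ hστ
      have hiff : (∀ x (hx : x ∈ X), x ∉ A → σ x = i.1 ⟨x, hx⟩) ↔
          (∀ x (hx : x ∈ X), x ∉ A → τ x = i.1 ⟨x, hx⟩) :=
        ⟨fun h x hx hxA => by rw [← hστ x hxA]; exact h x hx hxA,
          fun h x hx hxA => by rw [hστ x hxA]; exact h x hx hxA⟩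
      have hgeq : g i.2.2 (upd X i.2.1 σ) = g i.2.2 (upd X i.2.1 τ) := by
        apply hg
        intro x hx
        by_cases hxX : x ∈ X
        · rw [upd_of_mem X _ _ hxX, upd_of_mem X _ _ hxX]
        · rw [upd_of_not_mem X _ _ hxX, upd_of_not_mem X _ _ hxX]; exact hστ x hx
      simp only [hiff, hgeq]
    · intro σ
      rw [hP.mulVec_apply]
      symm
      beta_reduce
      rw [Fintype.sum_prod_type]
      refine (Finset.sum_eq_single (restr X σ) ?_ ?_).trans ?_
      · intro s _ hs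
        apply Finset.sum_eq_zero
        intro i _
        have : ¬ ((∀ x (hx : x ∈ X), x ∈ A → σ x = s ⟨x, hx⟩) ∧
            (∀ x (hx : x ∈ X), x ∉ A → σ x = s ⟨x, hx⟩)) := by
          rintro ⟨h1, h2⟩
          apply hs
          funext x
          by_cases hxA : x.1 ∈ A
          · exact (h1 x.1 x.2 hxA).symm
          · exact (h2 x.1 x.2 hxA).symm
        by_cases h1 : ∀ x (hx : x ∈ X), x ∈ A → σ x = s ⟨x, hx⟩
        · have h2 : ¬ (∀ x (hx : x ∈ X), x ∉ A → σ x = s ⟨x, hx⟩) := fun h2 => this ⟨h1, h2⟩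
          simp only [if_neg h2]
          ring
        · simp only [if_neg h1]
          ring
      · intro h; exact absurd (Finset.mem_univ _) h
      · rw [Fintype.sum_prod_type]
        refine Finset.sum_congr rfl fun t _ => ?_
        rw [hfg, Finset.mul_sum]
        refine Finset.sum_congr rfl fun k _ => ?_
        have hc1 : ∀ x (hx : x ∈ X), x ∈ A → σ x = restr X σ ⟨x, hx⟩ := fun x hx _ => rfl
        have hc2 : ∀ x (hx : x ∈ X), x ∉ A → σ x = restr X σ ⟨x, hx⟩ := fun x hx _ => rfl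
        have hPeq : P (upd X (restr X σ) σ0) (upd X t σ0) = P σ (upd X t σ) := by
          apply hP.2
          · intro y hy
            rw [upd_of_mem X _ _ hy, upd_of_mem X _ _ hy, upd_of_mem X _ _ hy]
            exact ⟨rfl, rfl⟩
          · intro y hy; rw [upd_of_not_mem X _ _ hy, upd_of_not_mem X _ _ hy]
          · intro y hy; rw [upd_of_not_mem X _ _ hy]
        simp only [if_pos hc1, if_pos hc2, hPeq]
        ring
  · refine ⟨Empty, inferInstance, by simp, fun _ _ => 0, fun _ _ => 0, ?_, ?_, ?_⟩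
    · intro k; exact k.elim
    · intro k; exact k.elim
    · intro σ; exact absurd ⟨σ⟩ hne

end

end Vale.Agent.H95.AreaLaw
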